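import Vale.Agent.Helper26.KTV.Johnson

/-!
Module M7 (abstract half) of the switch-chain project for simple graphs (problem P335):
transfer of the Johnson pair inequality from the `k`-subsets of a set to the fibres of a
pair label, for an arbitrary state space whose pair fibres are Johnson schemes.
-/

set_option linter.unusedSectionVars false

namespace KTV

namespace G26

open Finset JD

section Abstract

variable {X Λ V : Type*} [DecidableEq X] [DecidableEq V]

/-- The set `F` is in bijection with the `k`-subsets of `J` through `ones` and `mk`. -/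
structure IsJohnson (F : Finset X) (J : Finset V) (k : ℕ) (ones : X → Finset V)
    (mk : Finset V → X) : Prop where
  maps : ∀ y ∈ F, ones y ∈ J.powersetCard k ∧ mk (ones y) = y
  inv : ∀ S ∈ J.powersetCard k, mk S ∈ F ∧ ones (mk S) = S

theorem IsJohnson.sum_eq {F : Finset X} {J : Finset V} {k : ℕ} {ones : X → Finset V}
    {mk : Finset V → X} (h : IsJohnson F J k ones mk) (H : X → ℝ) :
    ∑ x ∈ F, H x = ∑ S ∈ J.powersetCard k, H (mk S) := by
  refine sum_nbij' ones mk ?_ ?_ ?_ ?_ ?_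
  · intro y hy; exact (h.maps y hy).1
  · intro S hS; exact (h.inv S hS).1
  · intro y hy; exact (h.maps y hy).2
  · intro S hS; exact (h.inv S hS).2
  · intro y hy; rw [(h.maps y hy).2]

theorem IsJohnson.card_eq {F : Finset X} {J : Finset V} {k : ℕ} {ones : X → Finset V}
    {mk : Finset V → X} (h : IsJohnson F J k ones mk) :
    F.card = (J.powersetCard k).card := by
  refine card_nbij' ones mk ?_ ?_ ?_ ?_
  · intro y hy; exact (h.maps y hy).1
  · intro S hS; exact (h.inv S hS).1
  · intro y hy; exact (h.maps y hy).2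
  · intro S hS; exact (h.inv S hS).2

theorem IsJohnson.sum_filter_eq {F : Finset X} {J : Finset V} {k : ℕ} {ones : X → Finset V}
    {mk : Finset V → X} (h : IsJohnson F J k ones mk) (p : X → Prop) [DecidablePred p]
    (q : Finset V → Prop) [DecidablePred q]
    (hpq : ∀ S ∈ J.powersetCard k, (p (mk S) ↔ q S)) (H : X → ℝ) :
    ∑ x ∈ F.filter p, H x = ∑ S ∈ (J.powersetCard k).filter q, H (mk S) := by
  rw [sum_filter, sum_filter, h.sum_eq]
  exact sum_congr rfl fun S hS => if_congr (hpq S hS) rfl rfl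

theorem IsJohnson.card_filter_eq {F : Finset X} {J : Finset V} {k : ℕ} {ones : X → Finset V}
    {mk : Finset V → X} (h : IsJohnson F J k ones mk) (p : X → Prop) [DecidablePred p]
    (q : Finset V → Prop) [DecidablePred q]
    (hpq : ∀ S ∈ J.powersetCard k, (p (mk S) ↔ q S)) :
    ((F.filter p).card : ℝ) = (((J.powersetCard k).filter q).card : ℝ) := by
  have h1 := h.sum_filter_eq p q hpq (fun _ => (1 : ℝ))
  simpa using h1

/-- The `k`-subsets of `J` that separate `w` and `z`. -/
def sep (J : Finset V) (k : ℕ) (w z : V) : Finset (Finset V) :=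
  (J.powersetCard k).filter fun U => (w ∈ U ∧ z ∉ U) ∨ (w ∉ U ∧ z ∈ U)

/-- The Johnson pair inequality with constant `c` (statement of module M4 for `c = 2`;
`c = 0` is the weak form), in the language of `jD`, `jV`. -/
def JohnsonPairC (V : Type*) [DecidableEq V] (c : ℝ) : Prop :=
  ∀ (J : Finset V) (k : ℕ) (g : Finset V → ℝ),
    ∑ w ∈ J, ∑ z ∈ J.erase w,
        ((sep J k w z).card : ℝ) *
          ((∑ U ∈ sep J k w z, g U) / ((sep J k w z).card : ℝ)
            - (∑ U ∈ J.powersetCard k, g U) / ((J.powersetCard k).card : ℝ)) ^ 2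
      ≤ (1 / 2) * jD J k g
        - c * jV (J.powersetCard k) g / ((J.powersetCard k).card : ℝ)

/-- The sharp Johnson pair inequality (constant `2`). -/
def JohnsonPair (V : Type*) [DecidableEq V] : Prop := JohnsonPairC V 2

/-- The charge of an event `O` relative to a label: the sum over the label classes `φ` of
`|φ ∩ O|` times the squared difference of the mean of `f` over `φ ∩ O` and over `φ`. -/
noncomputable def charge (Ω : Finset X) (lab : X → Λ) (O : X → Prop) (f : X → ℝ) : ℝ := by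
  classical exact
    ∑ x ∈ Ω.filter O, (cexpL (Ω.filter O) lab f x - cexpL Ω lab f x) ^ 2

theorem charge_nonneg (Ω : Finset X) (lab : X → Λ) (O : X → Prop) (f : X → ℝ) :
    0 ≤ charge Ω lab O f := by
  unfold charge
  exact sum_nonneg fun x _ => sq_nonneg _

end Abstract

section Fibre

open Classical

variable {X Λ V : Type*} [DecidableEq V] [Fintype V]

theorem cexpL_fibre (Ω : Finset X) (lab : X → Λ) (f : X → ℝ) {x0 x : X}
    (hx : lab x = lab x0) :
    cexpL Ω lab f x = (∑ y ∈ Ω.filter (fun y => lab y = lab x0), f y)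
      / ((Ω.filter (fun y => lab y = lab x0)).card : ℝ) := by
  unfold cexpL
  rw [hx]

/-- Charge of one event on one Johnson fibre. -/
theorem fibre_charge (Ω : Finset X) (lab : X → Λ) (O : X → Prop) (f : X → ℝ) {x0 : X}
    {J : Finset V} {k : ℕ} {ones : X → Finset V} {mk : Finset V → X}
    (hF : IsJohnson (Ω.filter (fun y => lab y = lab x0)) J k ones mk)
    (q : Finset V → Prop) [DecidablePred q]
    (hq : ∀ U ∈ J.powersetCard k, (O (mk U) ↔ q U)) :
    ∑ x ∈ Ω.filter (fun y => lab y = lab x0),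
        (if O x then (cexpL (Ω.filter O) lab f x - cexpL Ω lab f x) ^ 2 else 0)
      = (((J.powersetCard k).filter q).card : ℝ) *
          ((∑ U ∈ (J.powersetCard k).filter q, f (mk U))
              / (((J.powersetCard k).filter q).card : ℝ)
            - (∑ U ∈ J.powersetCard k, f (mk U)) / ((J.powersetCard k).card : ℝ)) ^ 2 := by
  rw [← sum_filter]
  have hc : ∀ x ∈ (Ω.filter (fun y => lab y = lab x0)).filter O,
      (cexpL (Ω.filter O) lab f x - cexpL Ω lab f x) ^ 2
        = ((∑ U ∈ (J.powersetCard k).filter q, f (mk U))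
              / (((J.powersetCard k).filter q).card : ℝ)
            - (∑ U ∈ J.powersetCard k, f (mk U)) / ((J.powersetCard k).card : ℝ)) ^ 2 := by
    intro x hx
    have hx1 : lab x = lab x0 := (mem_filter.mp (mem_filter.mp hx).1).2
    rw [cexpL_fibre Ω lab f hx1, cexpL_fibre (Ω.filter O) lab f hx1, filter_comm,
      hF.sum_eq f, hF.sum_filter_eq O q hq f, hF.card_filter_eq O q hq]
    have h2 : ((Ω.filter (fun y => lab y = lab x0)).card : ℝ)
        = ((J.powersetCard k).card : ℝ) := by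
      exact_mod_cast hF.card_eq
    rw [h2]
  rw [sum_congr rfl hc, sum_const, nsmul_eq_mul, hF.card_filter_eq O q hq]

theorem fibre_var (Ω : Finset X) (lab : X → Λ) (f : X → ℝ) {x0 : X} (hx0 : x0 ∈ Ω)
    {J : Finset V} {k : ℕ} {ones : X → Finset V} {mk : Finset V → X}
    (hF : IsJohnson (Ω.filter (fun y => lab y = lab x0)) J k ones mk) :
    ∑ x ∈ Ω.filter (fun y => lab y = lab x0), (f x - cexpL Ω lab f x) ^ 2
      = jV (J.powersetCard k) (fun S => f (mk S)) / ((J.powersetCard k).card : ℝ) := by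
  have hx0φ : x0 ∈ Ω.filter (fun y => lab y = lab x0) := mem_filter.mpr ⟨hx0, rfl⟩
  have hN : (0 : ℝ) < ((J.powersetCard k).card : ℝ) := by
    have h1 := card_pos.mpr ⟨x0, hx0φ⟩
    rw [hF.card_eq] at h1
    exact_mod_cast h1
  have h2 : ((Ω.filter (fun y => lab y = lab x0)).card : ℝ)
      = ((J.powersetCard k).card : ℝ) := by
    exact_mod_cast hF.card_eq
  have hc : ∀ x ∈ Ω.filter (fun y => lab y = lab x0),
      (f x - cexpL Ω lab f x) ^ 2
        = (f x - (∑ U ∈ J.powersetCard k, f (mk U)) / ((J.powersetCard k).card : ℝ)) ^ 2 := by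
    intro x hx
    rw [cexpL_fibre Ω lab f (mem_filter.mp hx).2, hF.sum_eq f, h2]
  rw [sum_congr rfl hc, hF.sum_eq
    (fun x => (f x - (∑ U ∈ J.powersetCard k, f (mk U)) / ((J.powersetCard k).card : ℝ)) ^ 2)]
  unfold jV
  simp only [sub_sq, sum_add_distrib, sum_sub_distrib, ← mul_sum, ← sum_mul, sum_const,
    nsmul_eq_mul]
  field_simp
  ring

theorem exch_mem {J : Finset V} {k : ℕ} {U : Finset V} (hU : U ∈ J.powersetCard k)
    {i j : V} (hi : i ∈ U) (hj : j ∈ J \ U) :
    insert j (U.erase i) ∈ J.powersetCard k := by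
  have hU' := mem_powersetCard.mp hU
  have hj' := mem_sdiff.mp hj
  rw [mem_powersetCard]
  constructor
  · exact insert_subset hj'.1 ((erase_subset _ _).trans hU'.1)
  · have hjS : j ∉ U.erase i := fun h => hj'.2 (mem_of_mem_erase h)
    rw [card_insert_of_notMem hjS, card_erase_of_mem hi, ← hU'.2]
    have hpos : 0 < U.card := card_pos.mpr ⟨i, hi⟩
    omega

/-- Lower bound for the block Dirichlet sums on one Johnson fibre. -/
theorem fibre_dirichlet (Ω : Finset X) (lab : X → Λ) (D : V → V → Prop)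
    (B : V → V → X → X → Prop) (f : X → ℝ) {x0 : X}
    {J : Finset V} {k : ℕ} {ones : X → Finset V} {mk : Finset V → X}
    (hF : IsJohnson (Ω.filter (fun y => lab y = lab x0)) J k ones mk)
    (hD : ∀ w ∈ J, ∀ z ∈ J, w ≠ z → D w z)
    (hB : ∀ U ∈ J.powersetCard k, ∀ i ∈ U, ∀ j ∈ J \ U,
      B i j (mk U) (mk (insert j (U.erase i))) ∧ B j i (mk U) (mk (insert j (U.erase i)))) :
    2 * jD J k (fun S => f (mk S))
      ≤ ∑ x ∈ Ω.filter (fun y => lab y = lab x0), ∑ w, ∑ z,
          (if D w z then ∑ y ∈ Ω.filter (B w z x), (f x - f y) ^ 2 else 0) := by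
  rw [hF.sum_eq (fun x => ∑ w, ∑ z,
    (if D w z then ∑ y ∈ Ω.filter (B w z x), (f x - f y) ^ 2 else 0))]
  unfold jD
  rw [mul_sum]
  refine sum_le_sum fun U hU => ?_
  have hUJ : U ⊆ J := (mem_powersetCard.mp hU).1
  have hG : ∀ w z, (0 : ℝ) ≤
      (if D w z then ∑ y ∈ Ω.filter (B w z (mk U)), (f (mk U) - f y) ^ 2 else 0) := by
    intro w z
    split_ifs
    · exact sum_nonneg fun y _ => sq_nonneg _
    · exact le_refl _
  have hmemΩ : ∀ i ∈ U, ∀ j ∈ J \ U, mk (insert j (U.erase i)) ∈ Ω := by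
    intro i hi j hj
    exact (mem_filter.mp (hF.inv _ (exch_mem hU hi hj)).1).1
  have hterm1 : ∀ i ∈ U, ∀ j ∈ J \ U,
      (f (mk U) - f (mk (insert j (U.erase i)))) ^ 2
        ≤ (if D i j then ∑ y ∈ Ω.filter (B i j (mk U)), (f (mk U) - f y) ^ 2 else 0) := by
    intro i hi j hj
    have hj' := mem_sdiff.mp hj
    have hij : i ≠ j := fun h => hj'.2 (h ▸ hi)
    rw [if_pos (hD i (hUJ hi) j hj'.1 hij)]
    have hmem : mk (insert j (U.erase i)) ∈ Ω.filter (B i j (mk U)) :=
      mem_filter.mpr ⟨hmemΩ i hi j hj, (hB U hU i hi j hj).1⟩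
    exact single_le_sum (f := fun y => (f (mk U) - f y) ^ 2) (fun y _ => sq_nonneg _) hmem
  have hterm2 : ∀ i ∈ U, ∀ j ∈ J \ U,
      (f (mk U) - f (mk (insert j (U.erase i)))) ^ 2
        ≤ (if D j i then ∑ y ∈ Ω.filter (B j i (mk U)), (f (mk U) - f y) ^ 2 else 0) := by
    intro i hi j hj
    have hj' := mem_sdiff.mp hj
    have hij : j ≠ i := fun h => hj'.2 (h ▸ hi)
    rw [if_pos (hD j hj'.1 i (hUJ hi) hij)]
    have hmem : mk (insert j (U.erase i)) ∈ Ω.filter (B j i (mk U)) :=
      mem_filter.mpr ⟨hmemΩ i hi j hj, (hB U hU i hi j hj).2⟩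
    exact single_le_sum (f := fun y => (f (mk U) - f y) ^ 2) (fun y _ => sq_nonneg _) hmem
  have h1 : ∑ i ∈ U, ∑ j ∈ J \ U, (f (mk U) - f (mk (insert j (U.erase i)))) ^ 2
      ≤ ∑ w ∈ U, ∑ z ∈ J \ U,
          (if D w z then ∑ y ∈ Ω.filter (B w z (mk U)), (f (mk U) - f y) ^ 2 else 0) :=
    sum_le_sum fun i hi => sum_le_sum fun j hj => hterm1 i hi j hj
  have h2 : ∑ i ∈ U, ∑ j ∈ J \ U, (f (mk U) - f (mk (insert j (U.erase i)))) ^ 2
      ≤ ∑ w ∈ J \ U, ∑ z ∈ U,
          (if D w z then ∑ y ∈ Ω.filter (B w z (mk U)), (f (mk U) - f y) ^ 2 else 0) := by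
    rw [sum_comm]
    exact sum_le_sum fun j hj => sum_le_sum fun i hi => hterm2 i hi j hj
  have h3 : ∑ w ∈ U, ∑ z ∈ J \ U,
        (if D w z then ∑ y ∈ Ω.filter (B w z (mk U)), (f (mk U) - f y) ^ 2 else 0)
      ≤ ∑ w ∈ U, ∑ z,
        (if D w z then ∑ y ∈ Ω.filter (B w z (mk U)), (f (mk U) - f y) ^ 2 else 0) :=
    sum_le_sum fun w _ =>
      sum_le_sum_of_subset_of_nonneg (subset_univ _) (fun z _ _ => hG w z)
  have h4 : ∑ w ∈ J \ U, ∑ z ∈ U,
        (if D w z then ∑ y ∈ Ω.filter (B w z (mk U)), (f (mk U) - f y) ^ 2 else 0)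
      ≤ ∑ w ∈ J \ U, ∑ z,
        (if D w z then ∑ y ∈ Ω.filter (B w z (mk U)), (f (mk U) - f y) ^ 2 else 0) :=
    sum_le_sum fun w _ =>
      sum_le_sum_of_subset_of_nonneg (subset_univ _) (fun z _ _ => hG w z)
  have h5 : ∑ w ∈ U, ∑ z,
        (if D w z then ∑ y ∈ Ω.filter (B w z (mk U)), (f (mk U) - f y) ^ 2 else 0)
      + ∑ w ∈ J \ U, ∑ z,
        (if D w z then ∑ y ∈ Ω.filter (B w z (mk U)), (f (mk U) - f y) ^ 2 else 0)
      ≤ ∑ w, ∑ z,
        (if D w z then ∑ y ∈ Ω.filter (B w z (mk U)), (f (mk U) - f y) ^ 2 else 0) := by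
    rw [← sum_union disjoint_sdiff]
    exact sum_le_sum_of_subset_of_nonneg (subset_univ _)
      (fun w _ _ => sum_nonneg fun z _ => hG w z)
  linarith

/-- The pair inequality on one Johnson fibre. -/
theorem fibre_pair {c : ℝ} (hJ : JohnsonPairC V c) (Ω : Finset X) (lab : X → Λ)
    (D : V → V → Prop)
    (O : V → V → X → Prop) (B : V → V → X → X → Prop) (f : X → ℝ) {x0 : X} (hx0 : x0 ∈ Ω)
    {J : Finset V} {k : ℕ} {ones : X → Finset V} {mk : Finset V → X}
    (hF : IsJohnson (Ω.filter (fun y => lab y = lab x0)) J k ones mk)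
    (hD : ∀ w ∈ J, ∀ z ∈ J, w ≠ z → D w z)
    (hO : ∀ w z, D w z → ∀ U ∈ J.powersetCard k,
      (O w z (mk U) ↔ (w ∈ J ∧ z ∈ J ∧ ((w ∈ U ∧ z ∉ U) ∨ (w ∉ U ∧ z ∈ U)))))
    (hB : ∀ U ∈ J.powersetCard k, ∀ i ∈ U, ∀ j ∈ J \ U,
      B i j (mk U) (mk (insert j (U.erase i))) ∧ B j i (mk U) (mk (insert j (U.erase i)))) :
    ∑ x ∈ Ω.filter (fun y => lab y = lab x0), ∑ w, ∑ z,
        (if D w z then
          (if O w z x then (cexpL (Ω.filter (O w z)) lab f x - cexpL Ω lab f x) ^ 2 else 0)
         else 0)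
      ≤ (1 / 4) * ∑ x ∈ Ω.filter (fun y => lab y = lab x0), ∑ w, ∑ z,
          (if D w z then ∑ y ∈ Ω.filter (B w z x), (f x - f y) ^ 2 else 0)
        - c * ∑ x ∈ Ω.filter (fun y => lab y = lab x0), (f x - cexpL Ω lab f x) ^ 2 := by
  have hJ' := hJ J k (fun S => f (mk S))
  have hDir := fibre_dirichlet Ω lab D B f hF hD hB
  have hV := fibre_var Ω lab f hx0 hF
  -- the value of one pair
  have hpair : ∀ w z, ∑ x ∈ Ω.filter (fun y => lab y = lab x0),
      (if D w z then
        (if O w z x then (cexpL (Ω.filter (O w z)) lab f x - cexpL Ω lab f x) ^ 2 else 0)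
       else 0)
      = if D w z then
          (((J.powersetCard k).filter
              (fun U => w ∈ J ∧ z ∈ J ∧ ((w ∈ U ∧ z ∉ U) ∨ (w ∉ U ∧ z ∈ U)))).card : ℝ) *
            ((∑ U ∈ (J.powersetCard k).filter
                  (fun U => w ∈ J ∧ z ∈ J ∧ ((w ∈ U ∧ z ∉ U) ∨ (w ∉ U ∧ z ∈ U))), f (mk U))
                / (((J.powersetCard k).filter
                  (fun U => w ∈ J ∧ z ∈ J ∧ ((w ∈ U ∧ z ∉ U) ∨ (w ∉ U ∧ z ∈ U)))).card : ℝ)
              - (∑ U ∈ J.powersetCard k, f (mk U)) / ((J.powersetCard k).card : ℝ)) ^ 2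
        else 0 := by
    intro w z
    by_cases hd : D w z
    · simp only [if_pos hd]
      exact fibre_charge Ω lab (O w z) f hF _ (hO w z hd)
    · simp only [if_neg hd]
      exact sum_const_zero
  have hzero : ∀ w z, ¬ (w ∈ J ∧ z ∈ J.erase w) →
      (J.powersetCard k).filter
        (fun U => w ∈ J ∧ z ∈ J ∧ ((w ∈ U ∧ z ∉ U) ∨ (w ∉ U ∧ z ∈ U))) = ∅ := by
    intro w z hwz
    refine filter_eq_empty_iff.mpr fun U _ hq => hwz ⟨hq.1, mem_erase.mpr ⟨?_, hq.2.1⟩⟩
    rintro rfl
    rcases hq.2.2 with h | h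
    · exact h.2 h.1
    · exact h.1 h.2
  have hsep : ∀ w z, (w ∈ J ∧ z ∈ J.erase w) →
      (J.powersetCard k).filter
        (fun U => w ∈ J ∧ z ∈ J ∧ ((w ∈ U ∧ z ∉ U) ∨ (w ∉ U ∧ z ∈ U))) = sep J k w z := by
    intro w z hwz
    unfold sep
    refine filter_congr fun U _ => ?_
    have hz := (mem_erase.mp hwz.2).2
    constructor
    · intro h; exact h.2.2
    · intro h; exact ⟨hwz.1, hz, h⟩
  have hL : ∑ x ∈ Ω.filter (fun y => lab y = lab x0), ∑ w, ∑ z,
        (if D w z then
          (if O w z x then (cexpL (Ω.filter (O w z)) lab f x - cexpL Ω lab f x) ^ 2 else 0)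
         else 0)
      = ∑ w ∈ J, ∑ z ∈ J.erase w,
        ((sep J k w z).card : ℝ) *
          ((∑ U ∈ sep J k w z, f (mk U)) / ((sep J k w z).card : ℝ)
            - (∑ U ∈ J.powersetCard k, f (mk U)) / ((J.powersetCard k).card : ℝ)) ^ 2 := by
    rw [sum_comm]
    rw [sum_congr rfl (fun w _ => sum_comm)]
    rw [sum_congr rfl (fun w _ => sum_congr rfl (fun z _ => hpair w z))]
    rw [← sum_subset (subset_univ J)]
    · refine sum_congr rfl fun w hw => ?_
      rw [← sum_subset (subset_univ (J.erase w))]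
      · refine sum_congr rfl fun z hz => ?_
        have hz' := mem_erase.mp hz
        rw [if_pos (hD w hw z hz'.2 (Ne.symm hz'.1)), hsep w z ⟨hw, hz⟩]
      · intro z _ hz
        rw [hzero w z (fun h => hz h.2)]
        simp
    · intro w _ hw
      refine sum_eq_zero fun z _ => ?_
      rw [hzero w z (fun h => hw h.1)]
      simp
  have e : c * jV (J.powersetCard k) (fun S => f (mk S)) / ((J.powersetCard k).card : ℝ)
      = c * (jV (J.powersetCard k) (fun S => f (mk S)) / ((J.powersetCard k).card : ℝ)) := by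
    ring
  rw [e] at hJ'
  rw [hL, hV]
  linarith

end Fibre

section Global

open Classical

variable {X Λ V : Type*} [DecidableEq V] [Fintype V]

/-- Membership in a label class (the filter carries the classical instance, as in
`PairFibres`). -/
theorem mem_labClass (Ω : Finset X) (lab : X → Λ) (x0 y : X) :
    y ∈ Ω.filter (fun y => lab y = lab x0) ↔ y ∈ Ω ∧ lab y = lab x0 :=
  mem_filter

/-- Every class of the label `lab` in `Ω` is a Johnson scheme, compatible with the events
`O w z` (the class members separating `w` and `z`) and with the block moves `B w z`. -/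
def PairFibres (Ω : Finset X) (lab : X → Λ) (D : V → V → Prop) (O : V → V → X → Prop)
    (B : V → V → X → X → Prop) : Prop :=
  ∀ x0 ∈ Ω, ∃ (J : Finset V) (k : ℕ) (ones : X → Finset V) (mk : Finset V → X),
    IsJohnson (Ω.filter (fun y => lab y = lab x0)) J k ones mk ∧
    (∀ w ∈ J, ∀ z ∈ J, w ≠ z → D w z) ∧
    (∀ w z, D w z → ∀ U ∈ J.powersetCard k,
      (O w z (mk U) ↔ (w ∈ J ∧ z ∈ J ∧ ((w ∈ U ∧ z ∉ U) ∨ (w ∉ U ∧ z ∈ U))))) ∧
    (∀ U ∈ J.powersetCard k, ∀ i ∈ U, ∀ j ∈ J \ U,
      B i j (mk U) (mk (insert j (U.erase i))) ∧ B j i (mk U) (mk (insert j (U.erase i))))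

theorem pair_charge_bound_cl {c : ℝ} (hJ : JohnsonPairC V c) (Ω : Finset X) (lab : X → Λ)
    (D : V → V → Prop) (O : V → V → X → Prop) (B : V → V → X → X → Prop)
    (hfib : PairFibres Ω lab D O B) (f : X → ℝ) :
    ∑ w, ∑ z, (if D w z then charge Ω lab (O w z) f else 0)
      ≤ (1 / 4) * ∑ w, ∑ z, (if D w z then dirichlet Ω (B w z) f else 0)
        - c * ∑ x ∈ Ω, (f x - cexpL Ω lab f x) ^ 2 := by
  have eL : ∑ w, ∑ z, (if D w z then charge Ω lab (O w z) f else 0)
      = ∑ x ∈ Ω, ∑ w, ∑ z,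
        (if D w z then
          (if O w z x then (cexpL (Ω.filter (O w z)) lab f x - cexpL Ω lab f x) ^ 2 else 0)
         else 0) := by
    conv_rhs => rw [sum_comm]
    refine sum_congr rfl fun w _ => ?_
    rw [sum_comm]
    refine sum_congr rfl fun z _ => ?_
    by_cases hd : D w z
    · simp only [if_pos hd]
      unfold charge
      rw [sum_filter]
    · simp only [if_neg hd]
      exact sum_const_zero.symm
  have eR : ∑ w, ∑ z, (if D w z then dirichlet Ω (B w z) f else 0)
      = ∑ x ∈ Ω, ∑ w, ∑ z,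
        (if D w z then ∑ y ∈ Ω.filter (B w z x), (f x - f y) ^ 2 else 0) := by
    conv_rhs => rw [sum_comm]
    refine sum_congr rfl fun w _ => ?_
    rw [sum_comm]
    refine sum_congr rfl fun z _ => ?_
    by_cases hd : D w z
    · simp only [if_pos hd]
      unfold dirichlet
      rfl
    · simp only [if_neg hd]
      exact sum_const_zero.symm
  rw [eL, eR]
  have hmaps : ∀ x ∈ Ω, lab x ∈ Ω.image lab := fun x hx => mem_image_of_mem _ hx
  have e1 := sum_fiberwise_of_maps_to hmaps (fun x => ∑ w, ∑ z,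
        (if D w z then
          (if O w z x then (cexpL (Ω.filter (O w z)) lab f x - cexpL Ω lab f x) ^ 2 else 0)
         else 0))
  have e2 := sum_fiberwise_of_maps_to hmaps (fun x => ∑ w, ∑ z,
        (if D w z then ∑ y ∈ Ω.filter (B w z x), (f x - f y) ^ 2 else 0))
  have e3 := sum_fiberwise_of_maps_to hmaps (fun x => (f x - cexpL Ω lab f x) ^ 2)
  rw [← e1, ← e2, ← e3, mul_sum, mul_sum, ← sum_sub_distrib]
  refine sum_le_sum fun l hl => ?_
  obtain ⟨x0, hx0, rfl⟩ := mem_image.mp hl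
  obtain ⟨J, k, ones, mk, hF, hD, hO, hB⟩ := hfib x0 hx0
  exact fibre_pair hJ Ω lab D O B f hx0 hF hD hO hB

/-- Module M7, abstract form: if every class of the pair label is a Johnson scheme
(compatibly with the events `O w z` and the block moves `B w z`), then the Johnson pair
inequality gives the bound of the summed charges by the block Dirichlet sums. -/
theorem pair_charge_bound {c : ℝ} (hJ : JohnsonPairC V c) (Ω : Finset X) (lab : X → Λ)
    (D : V → V → Prop) [inst : ∀ w z, Decidable (D w z)] (O : V → V → X → Prop)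
    (B : V → V → X → X → Prop) (hfib : PairFibres Ω lab D O B) (f : X → ℝ) :
    ∑ w, ∑ z, (if D w z then charge Ω lab (O w z) f else 0)
      ≤ (1 / 4) * ∑ w, ∑ z, (if D w z then dirichlet Ω (B w z) f else 0)
        - c * ∑ x ∈ Ω, (f x - cexpL Ω lab f x) ^ 2 := by
  have h := pair_charge_bound_cl hJ Ω lab D O B hfib f
  have hi : inst = fun w z => Classical.propDecidable (D w z) := Subsingleton.elim _ _
  subst hi
  exact h

/-- Johnson-Poincare inequality for the pair fibres (from `johnson_abs`): the squared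
deviation from the fibre means is at most one eighth of the summed block Dirichlet sums. -/
theorem pair_poincare (Ω : Finset X) (lab : X → Λ)
    (D : V → V → Prop) [inst : ∀ w z, Decidable (D w z)] (O : V → V → X → Prop)
    (B : V → V → X → X → Prop) (hfib : PairFibres Ω lab D O B) (f : X → ℝ) :
    8 * ∑ x ∈ Ω, (f x - cexpL Ω lab f x) ^ 2
      ≤ ∑ w, ∑ z, (if D w z then dirichlet Ω (B w z) f else 0) := by
  have hi : inst = fun w z => Classical.propDecidable (D w z) := Subsingleton.elim _ _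
  subst hi
  have eR : ∑ w, ∑ z, (if D w z then dirichlet Ω (B w z) f else 0)
      = ∑ x ∈ Ω, ∑ w, ∑ z,
        (if D w z then ∑ y ∈ Ω.filter (B w z x), (f x - f y) ^ 2 else 0) := by
    conv_rhs => rw [sum_comm]
    refine sum_congr rfl fun w _ => ?_
    rw [sum_comm]
    refine sum_congr rfl fun z _ => ?_
    by_cases hd : D w z
    · simp only [if_pos hd]
      unfold dirichlet
      rfl
    · simp only [if_neg hd]
      exact sum_const_zero.symm
  rw [eR]
  have hmaps : ∀ x ∈ Ω, lab x ∈ Ω.image lab := fun x hx => mem_image_of_mem _ hx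
  have e2 := sum_fiberwise_of_maps_to hmaps (fun x => ∑ w, ∑ z,
        (if D w z then ∑ y ∈ Ω.filter (B w z x), (f x - f y) ^ 2 else 0))
  have e3 := sum_fiberwise_of_maps_to hmaps (fun x => (f x - cexpL Ω lab f x) ^ 2)
  rw [← e2, ← e3, mul_sum]
  refine sum_le_sum fun l hl => ?_
  obtain ⟨x0, hx0, rfl⟩ := mem_image.mp hl
  obtain ⟨J, k, ones, mk, hF, hD, hO, hB⟩ := hfib x0 hx0
  have hDir := fibre_dirichlet Ω lab D B f hF hD hB
  have hV := fibre_var Ω lab f hx0 hF
  have hA := johnson_abs J k (fun S => f (mk S))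
  have hx0φ : x0 ∈ Ω.filter (fun y => lab y = lab x0) := mem_filter.mpr ⟨hx0, rfl⟩
  have hN : (0 : ℝ) < ((J.powersetCard k).card : ℝ) := by
    have h1 := card_pos.mpr ⟨x0, hx0φ⟩
    rw [hF.card_eq] at h1
    exact_mod_cast h1
  rw [hV]
  have h4 : 4 * (jV (J.powersetCard k) (fun S => f (mk S)) / ((J.powersetCard k).card : ℝ))
      ≤ jD J k (fun S => f (mk S)) := by
    rw [← mul_div_assoc, div_le_iff₀ hN]
    linarith
  linarith

end Global

end G26

end KTV
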