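import Vale.Agent.Helper16.KTVG.Plan
import Vale.Agent.Helper26.KTVG.PairAbs
import Vale.Agent.Helper1.KTVG.PairFibre

/-!
Module M7 of the switch-chain project for simple graphs (problem P335), concrete half:
the statement `KTVG.JohnsonStmt` from the Johnson pair inequality (module M4) and the
Johnson structure of the pair fibres of the graphs with a prescribed degree vector.
-/

namespace KTV

namespace G26

open Finset Classical KTVG Vale.Agent.Helper13.Switch Vale.Agent.Helper1

variable {n : ℕ}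

theorem labP_eq_iff (u v : Fin n) (G G' : SimpleGraph (Fin n)) :
    labP u v G = labP u v G' ↔ PairFibre.SameOff u v G G' := by
  unfold labP labOffV
  rw [slotLab_eq_iff]
  unfold PairFibre.SameOff Rinc
  constructor
  · intro h x y hxu hxv hyu hyv
    refine h x y ?_
    simp only [mem_insert, mem_singleton, not_or]
    exact ⟨⟨hxu, hxv⟩, hyu, hyv⟩
  · intro h x y hxy
    simp only [mem_insert, mem_singleton, not_or] at hxy
    exact h x y hxy.1.1 hxy.1.2 hxy.2.1 hxy.2.2

/-- The pair fibres of the graphs with degree vector `d` are Johnson schemes. -/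
def GraphPairFibres (n : ℕ) (d : Fin n → ℕ) : Prop :=
  ∀ u v : Fin n, u ≠ v →
    PairFibres (gOmega n d) (labP u v) (D4 u v) (SwB u v) (SwBrel u v)

/-- `KTVG.JohnsonStmt` from the sharp Johnson pair inequality and the Johnson structure of
the pair fibres. -/
theorem johnsonStmt_of (d : Fin n → ℕ) (hJ : JohnsonPairC (Fin n) 2)
    (hfib : GraphPairFibres n d) : JohnsonStmt n d := by
  intro u v huv f
  exact pair_charge_bound hJ (gOmega n d) (labP u v) (D4 u v) (SwB u v) (SwBrel u v)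
    (hfib u v huv) f

/-- Weak form (from the Johnson pair inequality with constant `0`). -/
theorem johnsonStmt_weak_of (d : Fin n → ℕ) (hJ : JohnsonPairC (Fin n) 0)
    (hfib : GraphPairFibres n d) :
    ∀ u v : Fin n, u ≠ v → ∀ f : SimpleGraph (Fin n) → ℝ,
      (∑ w, ∑ z, if D4 u v w z then KTVG.charge (gOmega n d) u v w z f else 0)
        ≤ (1 / 4 : ℝ) * (∑ w, ∑ z, if D4 u v w z then swD (gOmega n d) u v w z f else 0) := by
  intro u v huv f
  have h := pair_charge_bound hJ (gOmega n d) (labP u v) (D4 u v) (SwB u v) (SwBrel u v)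
    (hfib u v huv) f
  rw [zero_mul, sub_zero] at h
  exact h

/-- Johnson-Poincare inequality on the pair fibres. -/
theorem pairE_le (d : Fin n → ℕ) (hfib : GraphPairFibres n d) :
    ∀ u v : Fin n, u ≠ v → ∀ f : SimpleGraph (Fin n) → ℝ,
      8 * pairE (gOmega n d) u v f
        ≤ ∑ w, ∑ z, if D4 u v w z then swD (gOmega n d) u v w z f else 0 := by
  intro u v huv f
  exact pair_poincare (gOmega n d) (labP u v) (D4 u v) (SwB u v) (SwBrel u v)
    (hfib u v huv) f

/-- The pair fibres of the graphs with degree vector `d` are Johnson schemes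
(from the bijection of `Vale.Agent.Helper1.PairFibre`). -/
theorem graphPairFibres (d : Fin n → ℕ) : GraphPairFibres n d := by
  intro u v huv x0 hx0
  have hx0d := mem_gOmega.mp hx0
  refine ⟨PairFibre.priv u v x0, (PairFibre.ones u v x0).card, PairFibre.ones u v,
    PairFibre.mk u v x0, ⟨?_, ?_⟩, ?_, ?_, ?_⟩
  · intro y hy
    obtain ⟨hyΩ, hlab⟩ := (mem_labClass _ _ _ _).mp hy
    have hyd := mem_gOmega.mp hyΩ
    have hS : PairFibre.SameOff u v x0 y := fun a b h1 h2 h3 h4 =>
      ((labP_eq_iff u v y x0).mp hlab a b h1 h2 h3 h4).symm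
    exact PairFibre.fibre_maps huv ⟨fun i => by rw [hyd i, hx0d i], hS⟩
  · intro U hU
    obtain ⟨hin, hones⟩ := PairFibre.powerset_maps huv x0 hU
    refine ⟨(mem_labClass _ _ _ _).mpr ⟨mem_gOmega.mpr (fun i => by rw [hin.1 i, hx0d i]), ?_⟩,
      hones⟩
    exact (labP_eq_iff u v _ x0).mpr (fun a b h1 h2 h3 h4 => (hin.2 a b h1 h2 h3 h4).symm)
  · intro w hw z hz hwz
    have hw' := PairFibre.mem_priv.mp hw
    have hz' := PairFibre.mem_priv.mp hz
    exact ⟨huv, hw'.1.symm, hz'.1.symm, hw'.2.1.symm, hz'.2.1.symm, hwz⟩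
  · intro w z hD U hU
    have hUJ := (mem_powersetCard.mp hU).1
    obtain ⟨-, huw, huz, hvw, hvz, hwz⟩ := hD
    have h1 := PairFibre.allowed_mk_iff huv x0 hUJ (w := w) (z := z) hvw.symm huz.symm
    have h2 := PairFibre.allowed_mk_iff huv x0 hUJ (w := z) (z := w) hvz.symm huw.symm
    have e1 : ((PairFibre.mk u v x0 U).Adj u w ∧ (PairFibre.mk u v x0 U).Adj v z
        ∧ ¬ (PairFibre.mk u v x0 U).Adj u z ∧ ¬ (PairFibre.mk u v x0 U).Adj v w)
        ↔ Allowed (PairFibre.mk u v x0 U) u w z v := by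
      unfold Allowed
      rw [SimpleGraph.adj_comm _ v z, SimpleGraph.adj_comm _ v w]
    have e2 : ((PairFibre.mk u v x0 U).Adj u z ∧ (PairFibre.mk u v x0 U).Adj v w
        ∧ ¬ (PairFibre.mk u v x0 U).Adj u w ∧ ¬ (PairFibre.mk u v x0 U).Adj v z)
        ↔ Allowed (PairFibre.mk u v x0 U) u z w v := by
      unfold Allowed
      rw [SimpleGraph.adj_comm _ v w, SimpleGraph.adj_comm _ v z]
    unfold SwB
    rw [e1, e2, h1, h2]
    constructor
    · rintro (⟨a, b, c⟩ | ⟨a, b, c⟩)
      · exact ⟨hUJ a, b, Or.inl ⟨a, c⟩⟩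
      · exact ⟨b, hUJ a, Or.inr ⟨c, a⟩⟩
    · rintro ⟨a, b, (⟨c, e⟩ | ⟨c, e⟩)⟩
      · exact Or.inl ⟨c, b, e⟩
      · exact Or.inr ⟨e, a, c⟩
  · intro U hU i hi j hj
    have hUJ := (mem_powersetCard.mp hU).1
    have hj' := mem_sdiff.mp hj
    obtain ⟨hal, hsw⟩ := PairFibre.switch_mk huv x0 hi (hUJ hi) hj'.1 hj'.2
    exact ⟨Or.inl ⟨hal, hsw.symm⟩, Or.inr ⟨hal, hsw.symm⟩⟩

/-- **Module M7.**  `KTVG.JohnsonStmt` from the sharp Johnson pair inequality (module M4). -/
theorem johnsonStmt (d : Fin n → ℕ) (hJ : JohnsonPairC (Fin n) 2) : JohnsonStmt n d :=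
  johnsonStmt_of d hJ (graphPairFibres d)

/-- Johnson-Poincare inequality on the pair fibres of the graphs with degree vector `d`. -/
theorem pairE_le_swD (d : Fin n → ℕ) {u v : Fin n} (huv : u ≠ v)
    (f : SimpleGraph (Fin n) → ℝ) :
    8 * pairE (gOmega n d) u v f
      ≤ ∑ w, ∑ z, if D4 u v w z then swD (gOmega n d) u v w z f else 0 :=
  pairE_le d (graphPairFibres d) u v huv f

end G26

end KTV
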